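import Mathlib

/-!
# Switching along quadrilaterals in Tait-coloured bipartite cubic graphs

Helper file for problem P039 (proofs only).
-/

namespace Vale.Agent.Lib.P039


open Equiv Equiv.Perm

variable {V : Type*} [DecidableEq V]

/-- Multiplying a permutation by a transposition of two points in different cycles:
the two points end up in the same cycle. -/
lemma sameCycle_mul_swap_self [Finite V] (σ : Perm V) (a b : V) (hab : ¬ SameCycle σ a b) :
    SameCycle (σ * swap a b) a b := by
  set σ' := σ * swap a b with hσ'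
  have hne : a ≠ b := fun h => hab (h ▸ SameCycle.refl σ a)
  have h1 : σ' a = σ b := by simp [hσ']
  have hstep : ∀ x, x ≠ a → x ≠ b → σ' x = σ x := by
    intro x hxa hxb
    simp [hσ', swap_apply_of_ne_of_ne hxa hxb]
  -- iterate along the orbit of `b`
  have key : ∀ k : ℕ, (SameCycle σ' a ((σ ^ k) (σ b))) ∨ SameCycle σ' a b := by
    intro k
    induction k with
    | zero =>
      left
      rw [pow_zero, one_apply, ← h1]
      exact sameCycle_apply_right.mpr (SameCycle.refl _ _)
    | succ k ih =>
      rcases ih with ih | ih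
      · by_cases hx : (σ ^ k) (σ b) = b
        · right; rwa [hx] at ih
        · left
          have hxa : (σ ^ k) (σ b) ≠ a := by
            intro h
            apply hab
            have : SameCycle σ b ((σ ^ k) (σ b)) :=
              sameCycle_pow_right.mpr (sameCycle_apply_right.mpr (SameCycle.refl _ _))
            rw [h] at this
            exact this.symm
          rw [pow_succ', mul_apply, ← hstep _ hxa hx]
          exact sameCycle_apply_right.mpr ih
      · right; exact ih
  obtain ⟨n, hn0, hn⟩ := (isOfFinOrder_of_finite σ).exists_pow_eq_one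
  rcases key (n - 1) with h | h
  · have : (σ ^ (n - 1)) (σ b) = b := by
      rw [← mul_apply, ← pow_succ, Nat.sub_add_cancel hn0, hn, one_apply]
    rwa [this] at h
  · exact h

/-- Multiplying a permutation by a transposition of two points in different cycles only
merges cycles. -/
lemma sameCycle_mul_swap_of_sameCycle [Finite V] (σ : Perm V) (a b : V)
    (hab : ¬ SameCycle σ a b) (x y : V) (hxy : SameCycle σ x y) :
    SameCycle (σ * swap a b) x y := by
  set σ' := σ * swap a b with hσ'
  have hab' : SameCycle σ' a b := sameCycle_mul_swap_self σ a b hab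
  have h1 : σ' a = σ b := by simp [hσ']
  have h2 : σ' b = σ a := by simp [hσ']
  have hstep : ∀ z, z ≠ a → z ≠ b → σ' z = σ z := by
    intro z hza hzb
    simp [hσ', swap_apply_of_ne_of_ne hza hzb]
  have hclosed : ∀ z, SameCycle σ' x z → SameCycle σ' x (σ z) := by
    intro z hz
    by_cases hza : z = a
    · subst hza
      rw [← h2]
      exact sameCycle_apply_right.mpr (hz.trans hab')
    · by_cases hzb : z = b
      · subst hzb
        rw [← h1]
        exact sameCycle_apply_right.mpr (hz.trans hab'.symm)
      · rw [← hstep z hza hzb]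
        exact sameCycle_apply_right.mpr hz
  have hpow : ∀ k : ℕ, SameCycle σ' x ((σ ^ k) x) := by
    intro k
    induction k with
    | zero => exact SameCycle.refl _ _
    | succ k ih => rw [pow_succ', mul_apply]; exact hclosed _ ih
  obtain ⟨i, hi⟩ := hxy.exists_nat_pow_eq
  rw [← hi]
  exact hpow i




/-- A permutation of the vertices which moves every vertex to a neighbour and has a single
cycle gives a Hamiltonian cycle. -/
lemma isHamiltonian_of_perm {V : Type*} [Fintype V] [DecidableEq V] (G : SimpleGraph V)
    (σ : Perm V) (hadj : ∀ v, G.Adj v (σ v)) (hcyc : ∀ x y, SameCycle σ x y)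
    (hcard : 3 ≤ Fintype.card V) : G.IsHamiltonian := by
  intro _
  have hco : σ.IsCycleOn ((Finset.univ : Finset V) : Set V) := by
    refine ⟨?_, fun x _ y _ => hcyc x y⟩
    simp
  have hne : Nonempty V := Fintype.card_pos_iff.mp (by omega)
  obtain ⟨v0⟩ := hne
  set n := Fintype.card V with hn
  have hpow : ∀ m k : ℕ, (σ ^ m) v0 = (σ ^ k) v0 ↔ m ≡ k [MOD n] := by
    intro m k
    have := hco.pow_apply_eq_pow_apply (Finset.mem_univ v0) (m := m) (n := k)
    simpa using this
  have hcont : SimpleGraph.IsContained (SimpleGraph.cycleGraph n) G := by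
    refine ⟨⟨⟨fun i => (σ ^ (i : ℕ)) v0, ?_⟩, ?_⟩⟩
    · intro i j hij
      rw [SimpleGraph.cycleGraph_adj'] at hij
      have aux : ∀ u v : Fin n, (v - u).val = 1 → G.Adj ((σ ^ (u : ℕ)) v0) ((σ ^ (v : ℕ)) v0) := by
        intro u v h
        rw [Fin.val_sub] at h
        have h1 : (n - u.val + v.val) ≡ 1 [MOD n] := by
          unfold Nat.ModEq
          rw [h, Nat.mod_eq_of_lt (by omega)]
        have h2 : v.val ≡ u.val + 1 [MOD n] := by
          have h3 := h1.add_right u.val
          have h4 : n - u.val + v.val + u.val = v.val + n := by have := u.isLt; omega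
          rw [h4] at h3
          have h5 : v.val + n ≡ v.val [MOD n] := by simp [Nat.ModEq]
          calc v.val ≡ v.val + n [MOD n] := h5.symm
            _ ≡ 1 + u.val [MOD n] := h3
            _ = u.val + 1 := by ring
        have h6 : (σ ^ (v : ℕ)) v0 = (σ ^ (u.val + 1)) v0 := (hpow _ _).mpr h2
        rw [h6, pow_succ', mul_apply]
        exact hadj _
      rcases hij with h | h
      · exact (aux j i h).symm
      · exact aux i j h
    · intro i j hij
      have h1 : (i : ℕ) ≡ (j : ℕ) [MOD n] := (hpow _ _).mp hij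
      exact Fin.ext (Nat.ModEq.eq_of_lt_of_lt h1 i.isLt j.isLt)
  obtain ⟨v, p, hp, hlen⟩ := (SimpleGraph.cycleGraph_isContained_iff (by omega)).mp hcont
  exact ⟨v, p, SimpleGraph.Walk.isHamiltonianCycle_iff_isCycle_and_length_eq.mpr ⟨hp, hlen⟩⟩


section matchings

set_option linter.unusedSectionVars false

variable {V : Type*} [Fintype V] [DecidableEq V] (G : SimpleGraph V)
  (m : Fin 3 → V → V) (side : V → Bool)

/-- the data of three perfect matchings `m 0`, `m 1`, `m 2` covering all edges of a
bipartite graph in which all `{0, 2}`-bicoloured cycles have length four -/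
structure TaitData : Prop where
  adj : ∀ i v, G.Adj v (m i v)
  inv : ∀ i v, m i (m i v) = v
  ne : ∀ i j v, i ≠ j → m i v ≠ m j v
  all : ∀ u v, G.Adj u v → ∃ i, v = m i u
  side_flip : ∀ i v, side (m i v) = !side v
  quad : ∀ v, m 2 (m 0 (m 2 (m 0 v))) = v

variable {G m side}

namespace TaitData

variable (h : TaitData G m side)
include h

lemma phi_side (v : V) : side (m 2 (m 0 v)) = side v := by
  rw [h.side_flip, h.side_flip]; simp

lemma phi_ne (v : V) : m 2 (m 0 v) ≠ v := by
  intro hv
  have : m 2 (m 2 (m 0 v)) = m 2 v := by rw [hv]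
  rw [h.inv] at this
  exact h.ne 0 2 v (by decide) this

lemma m0_phi (v : V) : m 0 (m 2 (m 0 v)) = m 2 v := by
  have := h.quad v
  have h2 : m 2 (m 2 (m 0 (m 2 (m 0 v)))) = m 2 v := by rw [this]
  rwa [h.inv] at h2

lemma m2_phi (v : V) : m 2 (m 2 (m 0 v)) = m 0 v := h.inv 2 _

/-- the starting permutation: colour `0` from side `true`, colour `1` from side `false` -/
def tau : Perm V where
  toFun v := if side v then m 0 v else m 1 v
  invFun v := if side v then m 1 v else m 0 v
  left_inv v := by
    by_cases hv : side v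
    · simp [hv, h.side_flip, h.inv]
    · simp [hv, h.side_flip, h.inv]
  right_inv v := by
    by_cases hv : side v
    · simp [hv, h.side_flip, h.inv]
    · simp [hv, h.side_flip, h.inv]

end TaitData

/-- the invariant kept while merging cycles -/
def Inv (m : Fin 3 → V → V) (side : V → Bool) (σ : Perm V) : Prop :=
  (∀ v, side v = false → σ v = m 1 v) ∧
  (∀ v, side v = true → σ v = m 0 v ∨ σ v = m 2 v) ∧
  (∀ v, side v = true → σ v = m 2 v → SameCycle σ v (m 2 (m 0 v)))

lemma Inv.adj (h : TaitData G m side) {σ : Perm V} (hσ : Inv m side σ) (v : V) :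
    G.Adj v (σ v) := by
  cases hv : side v
  · rw [hσ.1 v hv]; exact h.adj 1 v
  · rcases hσ.2.1 v hv with h1 | h1 <;> rw [h1] <;> exact h.adj _ v

lemma Inv.tau (h : TaitData G m side) : Inv m side h.tau := by
  refine ⟨?_, ?_, ?_⟩
  · intro v hv; simp [TaitData.tau, hv]
  · intro v hv; left; simp [TaitData.tau, hv]
  · intro v hv h2
    exfalso
    have : h.tau v = m 0 v := by simp [TaitData.tau, hv]
    rw [this] at h2
    exact h.ne 0 2 v (by decide) h2

/-- the other vertex of side `true` on the `{0, 2}`-quadrilateral keeps the same choice -/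
lemma Inv.phi_zero (h : TaitData G m side) {σ : Perm V} (hσ : Inv m side σ) (v : V)
    (hv : side v = true) (h0 : σ v = m 0 v) : σ (m 2 (m 0 v)) = m 0 (m 2 (m 0 v)) := by
  rcases hσ.2.1 (m 2 (m 0 v)) (by rw [h.phi_side, hv]) with h1 | h1
  · exact h1
  · exfalso
    have h3 : σ (m 2 (m 0 v)) = σ v := by rw [h1, h.m2_phi, h0]
    exact h.phi_ne v (σ.injective h3)

lemma Inv.phi_two (h : TaitData G m side) {σ : Perm V} (hσ : Inv m side σ) (v : V)
    (hv : side v = true) (h2 : σ v = m 2 v) : σ (m 2 (m 0 v)) = m 2 (m 2 (m 0 v)) := by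
  rcases hσ.2.1 (m 2 (m 0 v)) (by rw [h.phi_side, hv]) with h1 | h1
  · exfalso
    have h3 : σ (m 2 (m 0 v)) = σ v := by rw [h1, h.m0_phi, h2]
    exact h.phi_ne v (σ.injective h3)
  · exact h1


/-- If no quadrilateral can merge two cycles, the permutation has a single cycle. -/
lemma Inv.single_cycle (h : TaitData G m side) (hconn : G.Connected) {σ : Perm V}
    (hσ : Inv m side σ)
    (hno : ∀ v, side v = true → σ v = m 0 v → SameCycle σ v (m 2 (m 0 v))) :
    ∀ x y, SameCycle σ x y := by
  -- every vertex of side `true` is in the same cycle as the other vertex of its quadrilateral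
  have hphi : ∀ v, side v = true → SameCycle σ v (m 2 (m 0 v)) := by
    intro v hv
    rcases hσ.2.1 v hv with h0 | h2
    · exact hno v hv h0
    · exact hσ.2.2 v hv h2
  -- closure under the three matchings, from side `false`
  have hwhite : ∀ (i : Fin 3) (w : V), side w = false → SameCycle σ w (m i w) := by
    intro i w hw
    have hu : ∀ j, side (m j w) = true := fun j => by rw [h.side_flip, hw]; rfl
    fin_cases i
    · -- colour 0
      show SameCycle σ w (m 0 w)
      set u := m 0 w with hu_def
      have hmu : m 0 u = w := h.inv 0 w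
      rcases hσ.2.1 u (hu 0) with h0 | h2
      · have : SameCycle σ u (σ u) := sameCycle_apply_right.mpr (SameCycle.refl _ _)
        rw [h0, hmu] at this
        exact this.symm
      · have h3 : σ (m 2 (m 0 u)) = w := by
          rw [Inv.phi_two h hσ u (hu 0) h2, h.m2_phi, hmu]
        have h4 : SameCycle σ (m 2 (m 0 u)) w := by
          rw [← h3]; exact sameCycle_apply_right.mpr (SameCycle.refl _ _)
        exact ((hphi u (hu 0)).trans h4).symm
    · -- colour 1
      show SameCycle σ w (m 1 w)
      rw [← hσ.1 w hw]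
      exact sameCycle_apply_right.mpr (SameCycle.refl _ _)
    · -- colour 2
      show SameCycle σ w (m 2 w)
      set u := m 2 w with hu_def
      have hmu : m 2 u = w := h.inv 2 w
      rcases hσ.2.1 u (hu 2) with h0 | h2
      · have h3 : σ (m 2 (m 0 u)) = w := by
          rw [Inv.phi_zero h hσ u (hu 2) h0, h.m0_phi, hmu]
        have h4 : SameCycle σ (m 2 (m 0 u)) w := by
          rw [← h3]; exact sameCycle_apply_right.mpr (SameCycle.refl _ _)
        exact ((hphi u (hu 2)).trans h4).symm
      · have : SameCycle σ u (σ u) := sameCycle_apply_right.mpr (SameCycle.refl _ _)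
        rw [h2, hmu] at this
        exact this.symm
  have hall : ∀ (i : Fin 3) (v : V), SameCycle σ v (m i v) := by
    intro i v
    cases hv : side v
    · exact hwhite i v hv
    · have := hwhite i (m i v) (by rw [h.side_flip, hv]; rfl)
      rw [h.inv] at this
      exact this.symm
  have hadj : ∀ u v, G.Adj u v → SameCycle σ u v := by
    intro u v huv
    obtain ⟨i, rfl⟩ := h.all u v huv
    exact hall i u
  intro x y
  have hreach : G.Reachable x y := hconn.preconnected x y
  rw [SimpleGraph.reachable_iff_reflTransGen] at hreach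
  induction hreach with
  | refl => exact SameCycle.refl _ _
  | tail _ hbc ih => exact ih.trans (hadj _ _ hbc)

/-- Merging two cycles along a quadrilateral keeps the invariant. -/
lemma Inv.step (h : TaitData G m side) {σ : Perm V} (hσ : Inv m side σ) (b : V)
    (hb : side b = true) (h0 : σ b = m 0 b) (hnot : ¬ SameCycle σ b (m 2 (m 0 b))) :
    Inv m side (σ * swap b (m 2 (m 0 b))) := by
  set b' := m 2 (m 0 b) with hb'
  have hb's : side b' = true := by rw [hb', h.phi_side, hb]
  have hσb' : σ b' = m 0 b' := Inv.phi_zero h hσ b hb h0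
  have hphib' : m 2 (m 0 b') = b := h.quad b
  have e1 : (σ * swap b b') b = m 2 b := by
    simp only [mul_apply, swap_apply_left]; rw [hσb', hb', h.m0_phi]
  have e2 : (σ * swap b b') b' = m 2 b' := by
    simp only [mul_apply, swap_apply_right]; rw [h0, hb', h.m2_phi]
  have e3 : ∀ v, v ≠ b → v ≠ b' → (σ * swap b b') v = σ v := by
    intro v h1 h2; simp [swap_apply_of_ne_of_ne h1 h2]
  refine ⟨?_, ?_, ?_⟩
  · intro v hv
    have h1 : v ≠ b := by rintro rfl; rw [hb] at hv; exact Bool.noConfusion hv
    have h2 : v ≠ b' := by rintro rfl; rw [hb's] at hv; exact Bool.noConfusion hv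
    rw [e3 v h1 h2]; exact hσ.1 v hv
  · intro v hv
    by_cases h1 : v = b
    · subst h1; right; exact e1
    · by_cases h2 : v = b'
      · rw [h2]; right; exact e2
      · rw [e3 v h1 h2]; exact hσ.2.1 v hv
  · intro v hv hv2
    by_cases h1 : v = b
    · subst h1; exact sameCycle_mul_swap_self σ v b' hnot
    · by_cases h2 : v = b'
      · rw [h2, hphib']; exact (sameCycle_mul_swap_self σ b b' hnot).symm
      · rw [e3 v h1 h2] at hv2
        exact sameCycle_mul_swap_of_sameCycle σ b b' hnot _ _ (hσ.2.2 v hv hv2)

/-- the main induction: from any permutation with the invariant we reach one with a single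
cycle -/
lemma exists_single_cycle (h : TaitData G m side) (hconn : G.Connected) :
    ∀ (N : ℕ) (σ : Perm V), Inv m side σ →
      Set.ncard {p : V × V | ¬ SameCycle σ p.1 p.2} ≤ N →
      ∃ σ' : Perm V, (∀ v, G.Adj v (σ' v)) ∧ ∀ x y, SameCycle σ' x y := by
  intro N
  induction N with
  | zero =>
    intro σ hσ hN
    refine ⟨σ, hσ.adj h, fun x y => ?_⟩
    have hfin : Set.Finite {p : V × V | ¬ SameCycle σ p.1 p.2} := Set.toFinite _
    have hempty : {p : V × V | ¬ SameCycle σ p.1 p.2} = ∅ := by
      rwa [Nat.le_zero, Set.ncard_eq_zero hfin] at hN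
    by_contra hxy
    have : (x, y) ∈ {p : V × V | ¬ SameCycle σ p.1 p.2} := hxy
    rw [hempty] at this
    exact this
  | succ N ih =>
    intro σ hσ hN
    by_cases hno : ∀ v, side v = true → σ v = m 0 v → SameCycle σ v (m 2 (m 0 v))
    · exact ⟨σ, hσ.adj h, hσ.single_cycle h hconn hno⟩
    · push Not at hno
      obtain ⟨b, hb, h0, hnot⟩ := hno
      apply ih (σ * swap b (m 2 (m 0 b))) (hσ.step h b hb h0 hnot)
      have hlt : Set.ncard {p : V × V | ¬ SameCycle (σ * swap b (m 2 (m 0 b))) p.1 p.2}
          < Set.ncard {p : V × V | ¬ SameCycle σ p.1 p.2} := by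
        apply Set.ncard_lt_ncard _ (Set.toFinite _)
        refine ⟨?_, ?_⟩
        · intro p hp hp'
          exact hp (sameCycle_mul_swap_of_sameCycle σ _ _ hnot _ _ hp')
        · intro hsub
          have : (b, m 2 (m 0 b)) ∈ {p : V × V | ¬ SameCycle σ p.1 p.2} := hnot
          exact hsub this (sameCycle_mul_swap_self σ _ _ hnot)
      omega

/-- **Switching theorem, matching form.** -/
theorem isHamiltonian_of_taitData (h : TaitData G m side) (hconn : G.Connected) :
    G.IsHamiltonian := by
  obtain ⟨σ, hadj, hcyc⟩ := exists_single_cycle h hconn _ h.tau (Inv.tau h) le_rfl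
  refine isHamiltonian_of_perm G σ hadj hcyc ?_
  obtain ⟨v⟩ := hconn.nonempty
  have h01 : m 0 v ≠ m 1 v := h.ne 0 1 v (by decide)
  have h0 : m 0 v ≠ v := fun e => (h.adj 0 v).ne e.symm
  have h1 : m 1 v ≠ v := fun e => (h.adj 1 v).ne e.symm
  have hcard : ({v, m 0 v, m 1 v} : Finset V).card = 3 := by
    rw [Finset.card_insert_of_notMem, Finset.card_insert_of_notMem, Finset.card_singleton]
    · simpa using h01
    · simp only [Finset.mem_insert, Finset.mem_singleton, not_or]
      exact ⟨fun e => h0 e.symm, fun e => h1 e.symm⟩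
  calc 3 = ({v, m 0 v, m 1 v} : Finset V).card := hcard.symm
    _ ≤ Fintype.card V := Finset.card_le_univ _

end matchings


section colouring

variable {V : Type*} [Fintype V] [DecidableEq V]

/-- **Switching theorem, edge-colouring form.** A connected bipartite graph with a proper
edge colouring by three colours in which every vertex sees each colour exactly once, and in
which every walk with colours `0, 2, 0, 2` is closed, has a Hamiltonian cycle. -/
theorem isHamiltonian_of_edge_colouring (G : SimpleGraph V) (hconn : G.Connected)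
    (hbip : G.IsBipartite) (c : V → V → Fin 3) (hsymm : ∀ u v, c u v = c v u)
    (hcol : ∀ (v : V) (i : Fin 3), ∃! w, G.Adj v w ∧ c v w = i)
    (hquad : ∀ v₁ v₂ v₃ v₄ v₅ : V, G.Adj v₁ v₂ → c v₁ v₂ = 0 → G.Adj v₂ v₃ → c v₂ v₃ = 2 →
      G.Adj v₃ v₄ → c v₃ v₄ = 0 → G.Adj v₄ v₅ → c v₄ v₅ = 2 → v₅ = v₁) :
    G.IsHamiltonian := by
  obtain ⟨C⟩ := hbip
  let side : V → Bool := fun v => decide (C v = 0)
  let m : Fin 3 → V → V := fun i v => Classical.choose (hcol v i).exists
  have hm : ∀ i v, G.Adj v (m i v) ∧ c v (m i v) = i :=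
    fun i v => Classical.choose_spec (hcol v i).exists
  have huniq : ∀ i v w, G.Adj v w → c v w = i → w = m i v :=
    fun i v w h1 h2 => (hcol v i).unique ⟨h1, h2⟩ (hm i v)
  have hT : TaitData G m side := by
    refine ⟨fun i v => (hm i v).1, ?_, ?_, ?_, ?_, ?_⟩
    · intro i v
      exact (huniq i (m i v) v (hm i v).1.symm (by rw [hsymm]; exact (hm i v).2)).symm
    · intro i j v hij heq
      apply hij
      rw [← (hm i v).2, ← (hm j v).2, heq]
    · intro u v huv
      exact ⟨c u v, huniq (c u v) u v huv rfl⟩
    · intro i v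
      have hne : C v ≠ C (m i v) := C.valid (hm i v).1
      have h2 : ∀ x : Fin 2, x = 0 ∨ x = 1 := by decide
      simp only [side]
      rcases h2 (C v) with h1 | h1 <;> rcases h2 (C (m i v)) with h3 | h3 <;>
        simp_all
    · intro v
      exact hquad v (m 0 v) (m 2 (m 0 v)) (m 0 (m 2 (m 0 v))) (m 2 (m 0 (m 2 (m 0 v))))
        (hm 0 v).1 (hm 0 v).2 (hm 2 _).1 (hm 2 _).2 (hm 0 _).1 (hm 0 _).2 (hm 2 _).1 (hm 2 _).2
  exact isHamiltonian_of_taitData hT hconn

end colouring

end Vale.Agent.Lib.P039
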